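import Mathlib

/-!
# P088, THEOREM S, block MOM: vanishing spherical means over an open set of centres
-/

open MeasureTheory Set Filter Topology Metric
open scoped ContDiff

noncomputable section

namespace Vale.Agent.P088.R2.H196

variable {d : ℕ}

/-- The hypothesis of MOM. -/
structure MomP (c₀ : EuclideanSpace ℝ (Fin d)) (η s : ℝ) (f : EuclideanSpace ℝ (Fin d) → ℝ) : Prop where
  cont : Continuous f
  supp : HasCompactSupport f
  zero : ∀ c ∈ ball c₀ η, ∀ h : ℝ → ℝ, Continuous h → (∀ t, s ≤ t → h t = 0) →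
      ∫ y, f y * h (‖y - c‖ ^ 2) = 0

theorem norm_sub_line (c y : EuclideanSpace ℝ (Fin d)) (i : Fin d) (t : ℝ) :
    HasDerivAt (fun t : ℝ => ‖y - (c + t • EuclideanSpace.single i (1 : ℝ))‖ ^ 2)
      (-2 * (y - (c + t • EuclideanSpace.single i (1 : ℝ))) i) t := by
  have h1 : HasDerivAt (fun t : ℝ => y - (c + t • EuclideanSpace.single i (1 : ℝ)))
      (-(EuclideanSpace.single i (1 : ℝ))) t := by
    have h2 : HasDerivAt (fun t : ℝ => t • EuclideanSpace.single i (1 : ℝ))
        ((1 : ℝ) • EuclideanSpace.single i (1 : ℝ)) t := (hasDerivAt_id t).smul_const _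
    rw [one_smul] at h2
    exact (h2.const_add c).const_sub y
  have h3 := h1.norm_sq
  convert h3 using 1
  rw [inner_neg_right, EuclideanSpace.inner_single_right]
  simp
  ring

theorem step {c₀ : EuclideanSpace ℝ (Fin d)} {η s : ℝ} {f : EuclideanSpace ℝ (Fin d) → ℝ} (hf : MomP c₀ η s f) (i : Fin d) :
    MomP c₀ η s (fun y => f y * y i) := by
  have hi : Continuous fun y : EuclideanSpace ℝ (Fin d) => y i := by fun_prop
  refine ⟨hf.cont.mul hi, hf.supp.mul_right, ?_⟩
  intro c hc k hk hks
  set H : ℝ → ℝ := fun u => ∫ x in s..u, k x with hH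
  have hHd : ∀ u, HasDerivAt H (k u) u := fun u =>
    intervalIntegral.integral_hasDerivAt_right (hk.intervalIntegrable _ _)
      (hk.stronglyMeasurableAtFilter _ _) hk.continuousAt
  have hHc : Continuous H := continuous_iff_continuousAt.2 fun u => (hHd u).continuousAt
  have hH0 : ∀ u, s ≤ u → H u = 0 := by
    intro u hu
    have : EqOn k (fun _ => 0) (uIcc s u) := by
      intro x hx
      rw [uIcc_of_le hu] at hx
      exact hks x hx.1
    simp only [hH]
    rw [intervalIntegral.integral_congr this]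
    simp
  set e : EuclideanSpace ℝ (Fin d) := EuclideanSpace.single i (1 : ℝ) with he
  set F : ℝ → EuclideanSpace ℝ (Fin d) → ℝ := fun t y => f y * H (‖y - (c + t • e)‖ ^ 2) with hF
  set F' : ℝ → EuclideanSpace ℝ (Fin d) → ℝ := fun t y => f y * (k (‖y - (c + t • e)‖ ^ 2) *
    (-2 * (y - (c + t • e)) i)) with hF'
  have hFd : ∀ t y, HasDerivAt (fun t => F t y) (F' t y) t := by
    intro t y
    exact (((hHd _).comp t (norm_sub_line c y i t))).const_mul (f y)
  -- bound
  have hcont2 : Continuous fun p : ℝ × EuclideanSpace ℝ (Fin d) => k (‖p.2 - (c + p.1 • e)‖ ^ 2) *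
      (-2 * (p.2 - (c + p.1 • e)) i) := by fun_prop
  obtain ⟨B, hB⟩ := ((isCompact_Icc (a := (-1 : ℝ)) (b := 1)).prod hf.supp.isCompact).exists_bound_of_continuousOn
    hcont2.continuousOn
  have hint : Integrable (F 0) := by
    have hc' : Continuous (F 0) := by
      simp only [hF]
      exact hf.cont.mul (hHc.comp (by fun_prop))
    refine hc'.integrable_of_hasCompactSupport ?_
    simp only [hF]
    exact hf.supp.mul_right
  have hfi : Integrable f := hf.cont.integrable_of_hasCompactSupport hf.supp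
  have hder : HasDerivAt (fun t => ∫ y, F t y) (∫ y, F' 0 y) 0 := by
    refine (hasDerivAt_integral_of_dominated_loc_of_deriv_le (μ := volume) (F := F) (F' := F')
      (x₀ := (0 : ℝ)) (s := ball (0 : ℝ) 1) (bound := fun y => |f y| * B)
      (ball_mem_nhds _ one_pos) ?_ hint ?_ ?_ (hfi.abs.mul_const B) ?_).2
    · refine Eventually.of_forall fun t => ?_
      simp only [hF]
      exact (hf.cont.mul (hHc.comp (by fun_prop))).aestronglyMeasurable
    · simp only [hF']
      exact (hf.cont.mul (by fun_prop)).aestronglyMeasurable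
    · refine Eventually.of_forall fun y t ht => ?_
      simp only [hF', Real.norm_eq_abs, abs_mul (f y)]
      by_cases hy : y ∈ tsupport f
      · refine mul_le_mul_of_nonneg_left ?_ (abs_nonneg _)
        have h1 := hB (t, y) ⟨?_, hy⟩
        · simpa [Real.norm_eq_abs] using h1
        · rw [mem_ball, Real.dist_eq, sub_zero, abs_lt] at ht
          exact ⟨ht.1.le, ht.2.le⟩
      · rw [image_eq_zero_of_notMem_tsupport hy]
        simp
    · exact Eventually.of_forall fun y t _ => hFd t y
  -- the function is locally zero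
  have hloc : (fun t => ∫ y, F t y) =ᶠ[𝓝 0] fun _ => 0 := by
    have hcc : Continuous fun t : ℝ => c + t • e := by fun_prop
    have h0 : ∀ᶠ t : ℝ in 𝓝 0, c + t • e ∈ ball c₀ η := by
      refine hcc.continuousAt.eventually ?_
      change ∀ᶠ y in 𝓝 (c + (0 : ℝ) • e), y ∈ ball c₀ η
      rw [zero_smul, add_zero]
      exact isOpen_ball.mem_nhds hc
    filter_upwards [h0] with t ht
    exact hf.zero _ ht H hHc hH0
  have hz : ∫ y, F' 0 y = 0 := by
    have h1 := (hasDerivAt_const (0 : ℝ) (0 : ℝ)).congr_of_eventuallyEq hloc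
    exact hder.unique h1
  have hz2 : ∫ y, f y * k (‖y - c‖ ^ 2) = 0 := hf.zero c hc k hk hks
  have hI1 : Integrable fun y => f y * (y i) * k (‖y - c‖ ^ 2) := by
    refine (Continuous.integrable_of_hasCompactSupport ?_ ?_)
    · exact (hf.cont.mul hi).mul (hk.comp (by fun_prop))
    · exact (hf.supp.mul_right).mul_right
  have hI2 : Integrable fun y => f y * k (‖y - c‖ ^ 2) := by
    refine (Continuous.integrable_of_hasCompactSupport ?_ ?_)
    · exact hf.cont.mul (hk.comp (by fun_prop))
    · exact hf.supp.mul_right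
  have h3 : ∫ y, F' 0 y = -2 * ∫ y, f y * (y i) * k (‖y - c‖ ^ 2) := by
    have h4 : ∀ y, F' 0 y = -2 * (f y * (y i) * k (‖y - c‖ ^ 2)) +
        2 * c i * (f y * k (‖y - c‖ ^ 2)) := by
      intro y
      simp only [hF', zero_smul, add_zero, PiLp.sub_apply]
      ring
    simp_rw [h4]
    rw [integral_add (hI1.const_mul _) (hI2.const_mul _), integral_const_mul,
      integral_const_mul, hz2, mul_zero, add_zero]
  rw [hz] at h3
  linarith

theorem poly {c₀ : EuclideanSpace ℝ (Fin d)} {η s : ℝ} {f : EuclideanSpace ℝ (Fin d) → ℝ} (hf : MomP c₀ η s f) (p : MvPolynomial (Fin d) ℝ) :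
    MomP c₀ η s (fun y => f y * MvPolynomial.eval (fun i => y i) p) := by
  induction p using MvPolynomial.induction_on with
  | C a =>
    refine ⟨?_, ?_, ?_⟩
    · simp only [MvPolynomial.eval_C]
      exact hf.cont.mul continuous_const
    · exact hf.supp.mul_right
    · intro c hc h hh hs
      have : ∀ y : EuclideanSpace ℝ (Fin d), f y * MvPolynomial.eval (fun i => y i) (MvPolynomial.C a) *
          h (‖y - c‖ ^ 2) = a * (f y * h (‖y - c‖ ^ 2)) := by
        intro y
        simp only [MvPolynomial.eval_C]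
        ring
      simp_rw [this]
      rw [integral_const_mul, hf.zero c hc h hh hs, mul_zero]
  | add p q hp hq =>
    refine ⟨?_, hf.supp.mul_right, ?_⟩
    · simp only [map_add, mul_add]
      exact hp.cont.add hq.cont
    · intro c hc h hh hs
      have : ∀ y : EuclideanSpace ℝ (Fin d), f y * MvPolynomial.eval (fun i => y i) (p + q) * h (‖y - c‖ ^ 2) =
          f y * MvPolynomial.eval (fun i => y i) p * h (‖y - c‖ ^ 2) +
          f y * MvPolynomial.eval (fun i => y i) q * h (‖y - c‖ ^ 2) := by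
        intro y
        simp only [map_add]
        ring
      simp_rw [this]
      rw [integral_add, hp.zero c hc h hh hs, hq.zero c hc h hh hs, add_zero]
      · exact (hp.cont.mul (hh.comp (by fun_prop))).integrable_of_hasCompactSupport
          hp.supp.mul_right
      · exact (hq.cont.mul (hh.comp (by fun_prop))).integrable_of_hasCompactSupport
          hq.supp.mul_right
  | mul_X p i hp =>
    have h1 := step hp i
    have h2 : (fun y : EuclideanSpace ℝ (Fin d) => f y * MvPolynomial.eval (fun i => y i) (p * MvPolynomial.X i)) =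
        fun y : EuclideanSpace ℝ (Fin d) => f y * MvPolynomial.eval (fun i => y i) p * y i := by
      funext y
      simp only [map_mul, MvPolynomial.eval_X]
      ring
    rw [h2]
    exact h1

/-- Polynomials are dense in the continuous functions on a compact set. -/
theorem sw {K : Set (EuclideanSpace ℝ (Fin d))} (hK : IsCompact K) {f : EuclideanSpace ℝ (Fin d) → ℝ} (hf : Continuous f) {δ : ℝ} (hδ : 0 < δ) :
    ∃ p : MvPolynomial (Fin d) ℝ, ∀ y ∈ K, |MvPolynomial.eval (fun i => y i) p - f y| ≤ δ := by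
  have hKc : CompactSpace K := isCompact_iff_compactSpace.1 hK
  let X : Fin d → C(K, ℝ) := fun i => ⟨fun y => (y : EuclideanSpace ℝ (Fin d)) i, by fun_prop⟩
  let A : Subalgebra ℝ C(K, ℝ) := (MvPolynomial.aeval X).range
  have hsep : A.SeparatesPoints := by
    intro x y hxy
    have : ∃ i, (x : EuclideanSpace ℝ (Fin d)) i ≠ (y : EuclideanSpace ℝ (Fin d)) i := by
      by_contra hcon
      push Not at hcon
      exact hxy (Subtype.ext (by ext i; exact hcon i))
    obtain ⟨i, hi⟩ := this
    exact ⟨X i, ⟨X i, ⟨MvPolynomial.X i, by simp⟩, rfl⟩, hi⟩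
  have hval : ∀ (p : MvPolynomial (Fin d) ℝ) (y : K),
      (MvPolynomial.aeval X p : C(K, ℝ)) y =
        MvPolynomial.eval (fun i => (y : EuclideanSpace ℝ (Fin d)) i) p := by
    intro p y
    induction p using MvPolynomial.induction_on with
    | C a => simp
    | add p q hp hq => simp [hp, hq]
    | mul_X p i hp => simp [hp, X]
  let g : C(K, ℝ) := ⟨fun y => f y, hf.comp continuous_subtype_val⟩
  obtain ⟨a, ha⟩ := ContinuousMap.exists_mem_subalgebra_near_continuousMap_of_separatesPoints
      A hsep g δ hδ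
  obtain ⟨p, hp⟩ := (AlgHom.mem_range _).1 a.2
  refine ⟨p, fun y hy => ?_⟩
  have h1 := (ContinuousMap.norm_coe_le_norm ((a : C(K, ℝ)) - g) ⟨y, hy⟩).trans ha.le
  rw [← hp, ContinuousMap.sub_apply, hval p ⟨y, hy⟩] at h1
  exact h1

theorem mom (d : ℕ) (f : EuclideanSpace ℝ (Fin d) → ℝ) (c₀ : EuclideanSpace ℝ (Fin d)) (η s : ℝ)
    (hf : Continuous f) (hfs : HasCompactSupport f) (hη : 0 < η)
    (h0 : ∀ c ∈ ball c₀ η, ∀ h : ℝ → ℝ, Continuous h → (∀ t, s ≤ t → h t = 0) →
      ∫ y, f y * h (‖y - c‖ ^ 2) = 0) :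
    ∀ y, ‖y - c₀‖ ^ 2 < s → f y = 0 := by
  have hP : MomP c₀ η s f := ⟨hf, hfs, h0⟩
  set k : ℝ → ℝ := fun t => max (s - t) 0 with hk
  have hkc : Continuous k := by fun_prop
  have hk0 : ∀ t, 0 ≤ k t := fun t => le_max_right _ _
  have hks : ∀ t, s ≤ t → k t = 0 := fun t ht => max_eq_right (by linarith)
  have hc₀ : c₀ ∈ ball c₀ η := mem_ball_self hη
  set K : Set (EuclideanSpace ℝ (Fin d)) := tsupport f with hK
  set G : EuclideanSpace ℝ (Fin d) → ℝ := fun y => f y * f y * k (‖y - c₀‖ ^ 2) with hG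
  have hGc : Continuous G := (hf.mul hf).mul (hkc.comp (by fun_prop))
  have hGs : HasCompactSupport G := hfs.mul_right.mul_right
  have hGi : Integrable G := hGc.integrable_of_hasCompactSupport hGs
  have hG0 : ∀ y, 0 ≤ G y := fun y => mul_nonneg (mul_self_nonneg _) (hk0 _)
  have hW : Integrable fun y => |f y| * k (‖y - c₀‖ ^ 2) :=
    (hf.abs.mul (hkc.comp (by fun_prop))).integrable_of_hasCompactSupport
      (hfs.norm.mul_right)
  have hint0 : ∫ y, G y = 0 := by
    refine le_antisymm ?_ (integral_nonneg hG0)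
    refine le_of_forall_pos_le_add fun ε hε => ?_
    set W := ∫ y, |f y| * k (‖y - c₀‖ ^ 2) with hWd
    have hWn : 0 ≤ W := integral_nonneg fun y => mul_nonneg (abs_nonneg _) (hk0 _)
    set δ : ℝ := ε / (W + 1) with hδ
    have hδp : 0 < δ := div_pos hε (by linarith)
    obtain ⟨p, hgy⟩ := sw hfs.isCompact hf hδp
    have hPp := poly hP p
    have h1 := hPp.zero c₀ hc₀ k hkc hks
    have hI : Integrable fun y => f y * MvPolynomial.eval (fun i => y i) p * k (‖y - c₀‖ ^ 2) :=
      (hPp.cont.mul (hkc.comp (by fun_prop))).integrable_of_hasCompactSupport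
        hPp.supp.mul_right
    have h2 : ∫ y, G y = ∫ y, (G y - f y * MvPolynomial.eval (fun i => y i) p *
        k (‖y - c₀‖ ^ 2)) := by
      rw [integral_sub hGi hI, h1, sub_zero]
    have h3 : ∫ y, (G y - f y * MvPolynomial.eval (fun i => y i) p *
        k (‖y - c₀‖ ^ 2)) ≤ ∫ y, δ * (|f y| * k (‖y - c₀‖ ^ 2)) := by
      refine integral_mono (hGi.sub hI) (hW.const_mul δ) fun y => ?_
      simp only [hG]
      by_cases hy : y ∈ K
      · have h4 : f y * f y * k (‖y - c₀‖ ^ 2) - f y * MvPolynomial.eval (fun i => y i) p *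
            k (‖y - c₀‖ ^ 2) = k (‖y - c₀‖ ^ 2) *
              (-(f y * (MvPolynomial.eval (fun i => y i) p - f y))) := by ring
        have h5 : δ * (|f y| * k (‖y - c₀‖ ^ 2)) = k (‖y - c₀‖ ^ 2) * (|f y| * δ) := by ring
        rw [h4, h5]
        refine mul_le_mul_of_nonneg_left ?_ (hk0 _)
        refine (neg_le_abs _).trans ?_
        rw [abs_mul]
        exact mul_le_mul_of_nonneg_left (hgy y hy) (abs_nonneg _)
      · rw [image_eq_zero_of_notMem_tsupport hy]
        simp
    rw [h2]
    refine h3.trans ?_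
    rw [integral_const_mul, ← hWd, zero_add, hδ, div_mul_eq_mul_div, div_le_iff₀ (by linarith)]
    nlinarith
  have hGz : G = 0 := by
    have := (integral_eq_zero_iff_of_nonneg hG0 hGi).1 hint0
    exact (hGc.ae_eq_iff_eq volume continuous_zero).1 this
  intro y hy
  have h1 := congrFun hGz y
  simp only [hG, Pi.zero_apply] at h1
  have h2 : 0 < k (‖y - c₀‖ ^ 2) := by
    simp only [hk]
    exact lt_max_of_lt_left (by linarith)
  have h3 : f y * f y = 0 := by
    rcases mul_eq_zero.1 h1 with h | h
    · exact h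
    · exact absurd h h2.ne'
  exact mul_self_eq_zero.1 h3

end Vale.Agent.P088.R2.H196
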