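import Vale.Agent.P088.R2.H196.CB2
import Vale.Agent.P088.R2.H196.Mom

/-!
# P088, THEOREM S, block CB
-/

open MeasureTheory Set Filter Topology Metric
open scoped ContDiff

noncomputable section

namespace Vale.Agent.P088.R2.H196

open Vale.Agent.P088.R2.H31 Vale.Agent.P088.R2.H605

variable {k : ℕ}

theorem norm_sq_split (x : E (k + 3)) : ‖x‖ ^ 2 = ‖pL x‖ ^ 2 + ‖pP x‖ ^ 2 := by
  rw [EuclideanSpace.norm_sq_eq, EuclideanSpace.norm_sq_eq, EuclideanSpace.norm_sq_eq]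
  rw [← (eqv k).sum_comp, Fintype.sum_sum_type]
  congr 1
  refine Finset.sum_congr rfl fun i _ => ?_
  have h : (⟨i.1 + 3, by omega⟩ : Fin (k + 3)) = eqv k (Sum.inr i) := by
    ext
    simp [eqv]
  simp only [pP]
  rw [h]

theorem pL_ev (ρ : ℝ) : pL (ρ • ev 1 : E (k + 3)) = ρ • ev 1 := by
  ext i
  fin_cases i <;> simp [pL, Fin.ext_iff]

theorem pP_ev (ρ : ℝ) : pP (ρ • ev 1 : E (k + 3)) = 0 := by
  ext i
  simp [pP, Fin.ext_iff]

theorem jn_mem {ρ η : ℝ} {b : E 3} {w : E k} (hη : 0 < η) (hb : b ∈ ball (ρ • ev 1 : E 3) (η / 2))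
    (hw : ‖w‖ < η / 2) : jn b w ∈ ball (ρ • ev 1 : E (k + 3)) η := by
  rw [mem_ball, dist_eq_norm] at hb ⊢
  refine lt_of_pow_lt_pow_left₀ 2 hη.le ?_
  rw [norm_sq_split, pL_sub, pP_sub, pL_jn, pP_jn, pL_ev, pP_ev, sub_zero]
  have h1 := norm_nonneg (b - ρ • ev 1)
  have h2 := norm_nonneg w
  have h3 : ‖b - ρ • ev 1‖ ^ 2 < (η / 2) ^ 2 := pow_lt_pow_left₀ hb h1 two_ne_zero
  have h4 : ‖w‖ ^ 2 < (η / 2) ^ 2 := pow_lt_pow_left₀ hw h2 two_ne_zero
  have h5 : 0 < η ^ 2 := by positivity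
  linarith only [h3, h4, h5]

variable {a : ℝ → ℝ} {ψ : E k → ℝ} {ra rb : ℝ}

theorem AW.abs (h : AW a ψ ra rb) : AW (fun t => |a t|) (fun t => |ψ t|) ra rb :=
  ⟨h.ac.abs, h.rpos, fun ρ hρ => by rw [h.supp ρ hρ, abs_zero], h.pc.abs,
    h.pcs.comp_left (g := fun t : ℝ => |t|) abs_zero⟩

theorem AW.integrable_w (h : AW a ψ ra rb) :
    Integrable (fun p : ℝ × E k => |a p.1| * |ψ p.2|) (nu k) := by
  have h1 : Integrable a (volume.restrict (Ioi (0 : ℝ))) := by
    have : HasCompactSupport a := HasCompactSupport.intro isCompact_Icc h.supp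
    exact (h.ac.integrable_of_hasCompactSupport this).restrict
  have h2 : Integrable ψ := h.pc.integrable_of_hasCompactSupport h.pcs
  exact (h1.norm.mul_prod h2.norm)

/-- the identity for the weight -/
theorem star {Q P : E (k + 3) → ℝ} {ρ₀ η η₁ C θ : ℝ} {m₀ : ℕ} (hQ : Continuous Q)
    (hQc : HasCompactSupport Q) (hP : Continuous P) (hPc : HasCompactSupport P)
    (hη₁ : 0 < η₁) (hC : 0 ≤ C) (hθ : 0 ≤ θ) (hθ1 : θ < 1)
    (H2 : ∀ c ∈ ball (ρ₀ • ev 1 : E (k + 3)) η₁, ∀ ρ ∈ Ioo (ρ₀ - η) (ρ₀ + η), ∀ m : ℕ, m₀ ≤ m →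
      1 ≤ m → |∫ x, Q x * Ker k m c ρ x| ≤ C / m * (∫ x, P x * Ker k m c ρ x) + C * θ ^ m)
    (h : AW a ψ ra rb) (hra : ρ₀ - η < ra) (hrb : rb < ρ₀ + η)
    (hψ : ∀ w, η₁ / 2 ≤ ‖w‖ → ψ w = 0) {b : E 3} (hb : b ∈ ball (ρ₀ • ev 1 : E 3) (η₁ / 2)) :
    ∫ x, Q x * (a ‖pL x - b‖ * ψ (pP x) / (2 * ‖pL x - b‖) ^ (k + 1)) = 0 := by
  obtain ⟨B, hB, hB'⟩ := h.abs.bound
  have hk := (lap' k a ψ ra rb h.ac h.rpos h.supp h.pc h.pcs).1
  set A : ℝ := ∫ p : ℝ × E k, |a p.1| * |ψ p.2| ∂(nu k) with hA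
  have hlim := h.tendsto hQ hQc b
  have hbd : ∀ᶠ m : ℕ in atTop,
      ‖(∫ p, (a p.1 * ψ p.2 * ∫ x, Q x * Ker k m (jn b p.2) p.1 x) ∂(nu k)) / kap k m‖ ≤
        (C * (B * ∫ x, ‖P x‖)) / m + C * A * (θ ^ m / kap k m) := by
    filter_upwards [eventually_ge_atTop 1, eventually_ge_atTop m₀] with m hm hm0
    have hkm := hk m hm
    have hm' : (0 : ℝ) < m := by exact_mod_cast hm
    rw [norm_div, Real.norm_of_nonneg hkm.le, div_le_iff₀ hkm]
    have hout := h.abs.integrable_outer hP hPc b hm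
    have hg : Integrable (fun p : ℝ × E k => C / m *
        (|a p.1| * |ψ p.2| * ∫ x, P x * Ker k m (jn b p.2) p.1 x) +
        C * θ ^ m * (|a p.1| * |ψ p.2|)) (nu k) :=
      (hout.const_mul _).add (h.integrable_w.const_mul _)
    refine (norm_integral_le_of_norm_le hg (Eventually.of_forall fun p => ?_)).trans ?_
    · rw [norm_mul, norm_mul, Real.norm_eq_abs, Real.norm_eq_abs, Real.norm_eq_abs]
      by_cases ha : a p.1 = 0
      · simp [ha]
      by_cases hp : ψ p.2 = 0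
      · simp [hp]
      have hρ : p.1 ∈ Icc ra rb := by
        by_contra hcon
        exact ha (h.supp _ hcon)
      have hw : ‖p.2‖ < η₁ / 2 := by
        by_contra hcon
        exact hp (hψ _ (not_lt.1 hcon))
      have h3 := H2 (jn b p.2) (jn_mem hη₁ hb hw) p.1
        ⟨hra.trans_le hρ.1, hρ.2.trans_lt hrb⟩ m hm0 hm
      have h4 : 0 ≤ |a p.1| * |ψ p.2| := by positivity
      have h5 := mul_le_mul_of_nonneg_left h3 h4
      refine h5.trans (le_of_eq ?_)
      ring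
    · rw [integral_add (hout.const_mul _) (h.integrable_w.const_mul _), integral_const_mul,
        integral_const_mul, h.abs.swap hP hPc b hm, ← hA]
      have h6 : ∫ x, P x * ∫ p, FF (fun t => |a t|) (fun t => |ψ t|) b m x p ∂(nu k) ≤
          B * kap k m * ∫ x, ‖P x‖ := by
        refine (le_abs_self _).trans ?_
        rw [← Real.norm_eq_abs, ← integral_const_mul]
        refine norm_integral_le_of_norm_le
          (((hP.integrable_of_hasCompactSupport hPc).norm).const_mul _) ?_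
        filter_upwards [ae_z3 (k := k) b] with x hx
        rw [norm_mul, mul_comm]
        gcongr
        exact (norm_integral_le_integral_norm _).trans (hB' b m x hm hx)
      have h7 : 0 ≤ C / m := by positivity
      have h8 := mul_le_mul_of_nonneg_left h6 h7
      have h9 : (C * (B * ∫ x, ‖P x‖) / m + C * A * (θ ^ m / kap k m)) * kap k m =
          C / m * (B * kap k m * ∫ x, ‖P x‖) + C * θ ^ m * A := by
        field_simp
      rw [h9]
      linarith only [h8]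
  have hz : Tendsto (fun m : ℕ => (C * (B * ∫ x, ‖P x‖)) / m + C * A * (θ ^ m / kap k m)) atTop
      (𝓝 0) := by
    have t1 : Tendsto (fun m : ℕ => (C * (B * ∫ x, ‖P x‖)) / (m : ℝ)) atTop (𝓝 0) :=
      tendsto_const_div_atTop_nhds_zero_nat _
    have t2 := (tendsto_pow_div_kap k hθ hθ1).const_mul (C * A)
    simpa using t1.add t2
  have h0 := squeeze_zero_norm' hbd hz
  exact tendsto_nhds_unique hlim h0

/-- a cutoff -/
def cut (s t : ℝ) (x : ℝ) : ℝ := max 0 (min 1 ((x - s) / (t - s)))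

theorem continuous_cut (s t : ℝ) : Continuous (cut s t) := by
  unfold cut; fun_prop

theorem cut_zero {s t x : ℝ} (hst : s < t) (hx : x ≤ s) : cut s t x = 0 := by
  unfold cut
  have h1 : (x - s) / (t - s) ≤ 0 := div_nonpos_of_nonpos_of_nonneg (by linarith) (by linarith)
  exact max_eq_left ((min_le_right _ _).trans h1)

theorem cut_one {s t x : ℝ} (hst : s < t) (hx : t ≤ x) : cut s t x = 1 := by
  unfold cut
  have h1 : 1 ≤ (x - s) / (t - s) := by rw [le_div_iff₀ (by linarith)]; linarith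
  rw [min_eq_left h1]
  simp

/-- the identity with a function of the squared distance -/
theorem star2 {Q P : E (k + 3) → ℝ} {ρ₀ η η₁ C θ : ℝ} {m₀ : ℕ} (hQ : Continuous Q)
    (hQc : HasCompactSupport Q) (hP : Continuous P) (hPc : HasCompactSupport P)
    (hη : 0 < η) (hηρ : η < ρ₀)
    (hη₁ : 0 < η₁) (hC : 0 ≤ C) (hθ : 0 ≤ θ) (hθ1 : θ < 1)
    (H1 : ∀ c ∈ ball (ρ₀ • ev 1 : E (k + 3)) η₁, ∀ x, ‖pP x‖ < η₁ →
      ‖pL (x - c)‖ ≤ ρ₀ - η / 2 → Q x = 0)
    (H2 : ∀ c ∈ ball (ρ₀ • ev 1 : E (k + 3)) η₁, ∀ ρ ∈ Ioo (ρ₀ - η) (ρ₀ + η), ∀ m : ℕ, m₀ ≤ m →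
      1 ≤ m → |∫ x, Q x * Ker k m c ρ x| ≤ C / m * (∫ x, P x * Ker k m c ρ x) + C * θ ^ m)
    (hψc : Continuous ψ) (hψs : HasCompactSupport ψ)
    (hψ : ∀ w, η₁ / 2 ≤ ‖w‖ → ψ w = 0) {b : E 3} (hb : b ∈ ball (ρ₀ • ev 1 : E 3) (η₁ / 2))
    {h : ℝ → ℝ} (hh : Continuous h) (hhs : ∀ t, (ρ₀ + η / 2) ^ 2 ≤ t → h t = 0) :
    ∫ x, Q x * ψ (pP x) * h (‖pL x - b‖ ^ 2) = 0 := by
  set a : ℝ → ℝ := fun ρ => h (ρ ^ 2) * (2 * ρ) ^ (k + 1) *
    cut (ρ₀ - 3 * η / 4) (ρ₀ - η / 2) ρ with ha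
  have hst : ρ₀ - 3 * η / 4 < ρ₀ - η / 2 := by linarith only [hη]
  have hA : AW a ψ (ρ₀ - 3 * η / 4) (ρ₀ + η / 2) := by
    refine ⟨?_, by linarith only [hη, hηρ], fun ρ hρ => ?_, hψc, hψs⟩
    · have := continuous_cut (ρ₀ - 3 * η / 4) (ρ₀ - η / 2)
      simp only [ha]
      fun_prop
    · rw [mem_Icc, not_and_or, not_le, not_le] at hρ
      rcases hρ with hρ | hρ
      · simp only [ha]
        rw [cut_zero hst hρ.le, mul_zero]
      · have h1 : (ρ₀ + η / 2) ^ 2 ≤ ρ ^ 2 :=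
          pow_le_pow_left₀ (by linarith only [hη, hηρ]) hρ.le 2
        simp only [ha]
        rw [hhs _ h1, zero_mul, zero_mul]
  have h1 := star hQ hQc hP hPc hη₁ hC hθ hθ1 H2 hA (by linarith only [hη])
    (by linarith only [hη]) hψ hb
  rw [← h1]
  refine integral_congr_ae (Eventually.of_forall fun x => ?_)
  simp only
  by_cases hx : ψ (pP x) = 0
  · rw [hx]; ring
  have hw : ‖pP x‖ < η₁ / 2 := by
    by_contra hcon
    exact hx (hψ _ (not_lt.1 hcon))
  rcases le_or_gt (‖pL x - b‖) (ρ₀ - η / 2) with hr | hr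
  · have h2 := H1 (jn b 0) (jn_mem hη₁ hb (by rw [norm_zero]; positivity)) x
      (by linarith only [hw, hη₁]) (by rw [pL_sub, pL_jn]; exact hr)
    rw [h2]; ring
  · have hr0 : 0 < ‖pL x - b‖ := by linarith only [hr, hη, hηρ]
    simp only [ha]
    rw [cut_one hst hr.le]
    field_simp

/-- the partial integral -/
def pint (Q : E (k + 3) → ℝ) (ψ : E k → ℝ) (y : E 3) : ℝ := ∫ t, Q (jn y t) * ψ t

theorem continuous_pint {Q : E (k + 3) → ℝ} (hQ : Continuous Q) (hψc : Continuous ψ)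
    (hψs : HasCompactSupport ψ) : Continuous (pint Q ψ) := by
  have h1 : pint Q ψ = fun y => ∫ t in tsupport ψ, Q (jn y t) * ψ t := by
    funext y
    rw [pint, setIntegral_eq_integral_of_forall_compl_eq_zero]
    intro t ht
    rw [image_eq_zero_of_notMem_tsupport ht, mul_zero]
  rw [h1]
  refine continuous_parametric_integral_of_continuous (f := fun y t => Q (jn y t) * ψ t) ?_
    hψs.isCompact
  exact (hQ.comp continuous_jn).mul (hψc.comp continuous_snd)

theorem compact_pint {Q : E (k + 3) → ℝ} (hQc : HasCompactSupport Q) (ψ : E k → ℝ) :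
    HasCompactSupport (pint Q ψ) := by
  refine HasCompactSupport.intro (hQc.isCompact.image continuous_pL) fun y hy => ?_
  have : ∀ t, Q (jn y t) = 0 := by
    intro t
    by_contra hne
    exact hy ⟨jn y t, subset_tsupport _ hne, pL_jn y t⟩
  simp [pint, this]

theorem integral_pint {Q : E (k + 3) → ℝ} (hQ : Continuous Q) (hQc : HasCompactSupport Q)
    (hψc : Continuous ψ) (hψs : HasCompactSupport ψ) {g : E 3 → ℝ} (hg : Continuous g) :
    ∫ y, pint Q ψ y * g y = ∫ x, Q x * ψ (pP x) * g (pL x) := by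
  have h1 := integral_split (k := k) (fun p : E 3 × E k => Q (jn p.1 p.2) * ψ p.2 * g p.1)
  simp only [jn_split] at h1
  rw [h1]
  have hint : Integrable (fun p : E 3 × E k => Q (jn p.1 p.2) * ψ p.2 * g p.1)
      (volume.prod volume) := by
    refine Continuous.integrable_of_hasCompactSupport
      (((hQ.comp continuous_jn).mul (hψc.comp continuous_snd)).mul (hg.comp continuous_fst)) ?_
    refine HasCompactSupport.intro ((hQc.isCompact.image continuous_pL).prod hψs.isCompact)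
      fun p hp => ?_
    rw [mem_prod, not_and_or] at hp
    rcases hp with hp | hp
    · have : Q (jn p.1 p.2) = 0 := by
        by_contra hne
        exact hp ⟨jn p.1 p.2, subset_tsupport _ hne, pL_jn _ _⟩
      rw [this]; ring
    · rw [image_eq_zero_of_notMem_tsupport hp]; ring
  rw [Measure.volume_eq_prod, integral_prod _ hint]
  refine integral_congr_ae (Eventually.of_forall fun y => ?_)
  simp only [pint]
  rw [← integral_mul_const]

/-- CB -/
theorem cb : CB_statement := by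
  intro k Q P ρ₀ η η₁ C θ m₀ hQ hQc hP hPc hP0 hη hηρ hη₁ hC hθ hθ1 H1 H2
  have hρ₀ : 0 < ρ₀ := hη.trans hηρ
  have key : ∀ y : E 3, ‖y - ρ₀ • ev 1‖ ^ 2 < (ρ₀ + η / 2) ^ 2 → ∀ t : E k, ‖t‖ < η₁ / 2 →
      Q (jn y t) = 0 := by
    intro y hy t₀ ht₀
    set χ : E k → ℝ := fun t => max 0 (η₁ / 2 - ‖t‖) with hχ
    have hχc : Continuous χ := by simp only [hχ]; fun_prop
    have hχ0 : ∀ w, η₁ / 2 ≤ ‖w‖ → χ w = 0 := by
      intro w hw
      simp only [hχ]
      exact max_eq_left (by linarith only [hw])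
    have hχs : HasCompactSupport χ := by
      refine HasCompactSupport.intro (isCompact_closedBall (0 : E k) (η₁ / 2)) fun w hw => ?_
      rw [mem_closedBall_zero_iff, not_le] at hw
      exact hχ0 w hw.le
    have hjc : Continuous (fun t : E k => Q (jn y t)) :=
      hQ.comp (continuous_jn.comp (by fun_prop : Continuous fun t : E k => (y, t)))
    set ψ : E k → ℝ := fun t => Q (jn y t) * χ t with hψ
    have hψc : Continuous ψ := hjc.mul hχc
    have hψs : HasCompactSupport ψ := hχs.mul_left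
    have hψ0 : ∀ w, η₁ / 2 ≤ ‖w‖ → ψ w = 0 := by
      intro w hw
      simp only [hψ]
      rw [hχ0 w hw, mul_zero]
    have h1 := mom 3 (pint Q ψ) (ρ₀ • ev 1) (η₁ / 2) ((ρ₀ + η / 2) ^ 2)
      (continuous_pint hQ hψc hψs) (compact_pint hQc ψ) (by positivity)
      (fun b hb h hh hhs => by
        rw [integral_pint hQ hQc hψc hψs (g := fun y => h (‖y - b‖ ^ 2)) (by fun_prop)]
        exact star2 hQ hQc hP hPc hη hηρ hη₁ hC hθ hθ1 H1 H2 hψc hψs hψ0 hb hh hhs) y hy
    have h2 : ∀ t, 0 ≤ Q (jn y t) * ψ t := by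
      intro t
      have h3 : Q (jn y t) * ψ t = Q (jn y t) ^ 2 * χ t := by simp only [hψ]; ring
      rw [h3]
      have : 0 ≤ χ t := le_max_left _ _
      positivity
    have h3 : Integrable (fun t => Q (jn y t) * ψ t) :=
      (hjc.mul hψc).integrable_of_hasCompactSupport hψs.mul_left
    rw [pint, integral_eq_zero_iff_of_nonneg h2 h3] at h1
    have h4 := (Continuous.ae_eq_iff_eq volume (hjc.mul hψc) continuous_const).1 h1
    have h5 := congrFun h4 t₀
    have h6 : Q (jn y t₀) * (Q (jn y t₀) * χ t₀) = 0 := h5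
    have h7 : χ t₀ ≠ 0 := by
      have : 0 < χ t₀ := lt_max_of_lt_right (by linarith only [ht₀])
      exact this.ne'
    rcases mul_eq_zero.1 h6 with h8 | h8
    · exact h8
    · exact (mul_eq_zero.1 h8).resolve_right h7
  refine ⟨min (η₁ / 2) (η / 2), lt_min (by positivity) (by positivity), fun x hx => ?_⟩
  rw [mem_ball_zero_iff] at hx
  have hxs := norm_sq_split x
  have h1 : ‖pL x‖ ≤ ‖x‖ := by
    refine le_of_sq_le_sq ?_ (norm_nonneg _)
    have := sq_nonneg ‖pP x‖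
    linarith only [this, hxs]
  have h2 : ‖pP x‖ ≤ ‖x‖ := by
    refine le_of_sq_le_sq ?_ (norm_nonneg _)
    have := sq_nonneg ‖pL x‖
    linarith only [this, hxs]
  have h3 := key (pL x) ?_ (pP x) (h2.trans_lt (hx.trans_le (min_le_left _ _)))
  · rwa [jn_split] at h3
  · refine pow_lt_pow_left₀ ?_ (norm_nonneg _) two_ne_zero
    have h4 := norm_sub_le (pL x) (ρ₀ • ev 1)
    have h5 : ‖(ρ₀ • ev 1 : E 3)‖ = ρ₀ := by
      rw [norm_smul, Real.norm_of_nonneg hρ₀.le]
      simp [ev]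
    have h6 := hx.trans_le (min_le_right _ _)
    linarith only [h1, h4, h5, h6]

end Vale.Agent.P088.R2.H196
end
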