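import Vale.Agent.P088.R2.H31.CSpec2

/-!
# P088, THEOREM S, block CB: splitting `E (k+3) = E 3 × E k`
-/

open MeasureTheory Set Filter Topology Metric
open scoped ContDiff

noncomputable section

namespace Vale.Agent.P088.R2.H196

open Vale.Agent.P088.R2.H31

variable {k : ℕ}

theorem continuous_pL : Continuous (pL : E (k + 3) → E 3) := by
  unfold pL
  exact (PiLp.continuous_toLp 2 (fun _ : Fin 3 => ℝ)).comp (by fun_prop)

theorem continuous_pP : Continuous (pP : E (k + 3) → E k) := by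
  unfold pP
  exact (PiLp.continuous_toLp 2 (fun _ : Fin k => ℝ)).comp (by fun_prop)

/-- The inverse of the splitting. -/
def jn (y : E 3) (t : E k) : E (k + 3) :=
  WithLp.toLp 2 fun i => if h : i.1 < 3 then y ⟨i.1, h⟩ else t ⟨i.1 - 3, by omega⟩

theorem pL_jn (y : E 3) (t : E k) : pL (jn y t) = y := by
  ext i
  simp [pL, jn]

theorem pP_jn (y : E 3) (t : E k) : pP (jn y t) = t := by
  ext i
  simp [pP, jn]

theorem jn_split (x : E (k + 3)) : jn (pL x) (pP x) = x := by
  ext i
  by_cases h : i.1 < 3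
  · simp [pL, jn, h]
  · have : (⟨i.1 - 3 + 3, by omega⟩ : Fin (k + 3)) = i := by
      ext; simp only; omega
    simp [jn, pP, pL, h, this]

theorem pL_sub (x y : E (k + 3)) : pL (x - y) = pL x - pL y := by
  ext i; simp [pL]

theorem pP_sub (x y : E (k + 3)) : pP (x - y) = pP x - pP y := by
  ext i; simp [pP]

theorem jn_sub (y y' : E 3) (t t' : E k) : jn y t - jn y' t' = jn (y - y') (t - t') := by
  ext i
  by_cases h : i.1 < 3
  · simp [jn, h]
  · simp [jn, h]

theorem continuous_jn : Continuous (fun p : E 3 × E k => jn p.1 p.2) := by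
  unfold jn
  refine (PiLp.continuous_toLp 2 (fun _ : Fin (k + 3) => ℝ)).comp ?_
  refine continuous_pi fun i => ?_
  by_cases h : i.1 < 3
  · simp only [h, dite_true]; fun_prop
  · simp only [h, dite_false]; fun_prop

/-- The equivalence of the index sets. -/
def eqv (k : ℕ) : Fin 3 ⊕ Fin k ≃ Fin (k + 3) := finSumFinEquiv.trans (finCongr (add_comm 3 k))

theorem mp_split : MeasurePreserving (fun x : E (k + 3) => ((pL x, pP x) : E 3 × E k)) := by
  have A := PiLp.volume_preserving_ofLp (Fin (k + 3))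
  have B := (volume_measurePreserving_piCongrLeft (fun _ : Fin (k + 3) => ℝ) (eqv k)).symm
  have C := volume_measurePreserving_sumPiEquivProdPi (fun _ : Fin 3 ⊕ Fin k => ℝ)
  have D := (PiLp.volume_preserving_toLp (Fin 3)).prod (PiLp.volume_preserving_toLp (Fin k))
  have F := D.comp (C.comp (B.comp A))
  have e : (fun x : E (k + 3) => ((pL x, pP x) : E 3 × E k)) =
      (Prod.map (WithLp.toLp 2) (WithLp.toLp 2) ∘
      (MeasurableEquiv.sumPiEquivProdPi fun _ : Fin 3 ⊕ Fin k => ℝ) ∘
      (MeasurableEquiv.piCongrLeft (fun _ : Fin (k + 3) => ℝ) (eqv k)).symm ∘ WithLp.ofLp) := by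
    funext x
    refine Prod.ext ?_ ?_
    · ext i
      rfl
    · ext i
      change x ⟨i.1 + 3, by omega⟩ = x (eqv k (Sum.inr i))
      have h : (⟨i.1 + 3, by omega⟩ : Fin (k + 3)) = eqv k (Sum.inr i) := by
        ext
        simp [eqv]
      rw [h]
  rw [e]
  exact F

/-- The splitting as a measurable equivalence. -/
def spl (k : ℕ) : E (k + 3) ≃ᵐ E 3 × E k where
  toFun x := (pL x, pP x)
  invFun p := jn p.1 p.2
  left_inv x := jn_split x
  right_inv _ := Prod.ext (pL_jn _ _) (pP_jn _ _)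
  measurable_toFun := (continuous_pL.prodMk continuous_pP).measurable
  measurable_invFun := continuous_jn.measurable

theorem integral_split (F : E 3 × E k → ℝ) :
    ∫ x : E (k + 3), F (pL x, pP x) = ∫ p : E 3 × E k, F p :=
  MeasurePreserving.integral_comp' (f := spl k) mp_split F

/-- `z` in terms of the first coordinates -/
def z3 (y : E 3) : ℝ := √((12 / 13 * y 0 + 5 / 13 * y 1) ^ 2 + y 2 ^ 2)

theorem zz_eq (x : E (k + 3)) : zz x = z3 (pL x) := by
  have h1 : (pL x) 1 = x 1 := by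
    simp [pL]
  have h2 : (pL x) 2 = x 2 := by
    have e2 : (⟨2, by omega⟩ : Fin (k + 3)) = 2 := by
      apply Fin.ext
      change 2 = 2 % (k + 3)
      rw [Nat.mod_eq_of_lt (by omega)]
    simp [pL, e2]
  have h0 : (pL x) 0 = x 0 := by
    simp [pL]
  rw [zz, z3, h0, h1, h2]

theorem continuous_z3 : Continuous z3 := by
  unfold z3; fun_prop

theorem z3_nonneg (y : E 3) : 0 ≤ z3 y := Real.sqrt_nonneg _

theorem norm_pos_of_z3 {y : E 3} (h : 0 < z3 y) : 0 < ‖y‖ := by
  rw [norm_pos_iff]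
  rintro rfl
  simp [z3] at h

theorem ae_z3 (b : E 3) : ∀ᵐ x : E (k + 3), 0 < z3 (pL x - b) := by
  have h1 : ∀ᵐ y : E 3, 0 < z3 (y - b) := by
    have A := PiLp.volume_preserving_ofLp (Fin 3)
    have h2 : (volume : Measure (Fin 3 → ℝ)) {f | f 2 = b 2} = 0 :=
      Measure.pi_hyperplane (μ := fun _ : Fin 3 => (volume : Measure ℝ)) 2 (b 2)
    have h3 : ∀ᵐ f : Fin 3 → ℝ, f 2 ≠ b 2 := by
      rw [ae_iff]
      simpa using h2
    have h4 : ∀ᵐ y : E 3, y 2 ≠ b 2 := A.quasiMeasurePreserving.ae h3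
    filter_upwards [h4] with y hy
    unfold z3
    apply Real.sqrt_pos.2
    have h5 : (y - b) 2 ≠ 0 := by
      simpa using sub_ne_zero.2 hy
    have h6 : 0 < (y - b) 2 ^ 2 := by positivity
    have h7 : 0 ≤ (12 / 13 * (y - b) 0 + 5 / 13 * (y - b) 1) ^ 2 := by positivity
    linarith
  have h2 : ∀ᵐ p : E 3 × E k, 0 < z3 (p.1 - b) :=
    Measure.quasiMeasurePreserving_fst.ae h1
  exact mp_split.quasiMeasurePreserving.ae h2

end Vale.Agent.P088.R2.H196
end
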