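import Vale.Agent.P088.R2.H196.CB1
import Vale.Agent.P088.R2.H605.Lap

/-!
# P088, THEOREM S, block CB: Fubini and the limit
-/

open MeasureTheory Set Filter Topology Metric
open scoped ContDiff

noncomputable section

namespace Vale.Agent.P088.R2.H196

open Vale.Agent.P088.R2.H31 Vale.Agent.P088.R2.H605

variable {k : ℕ}

/-- The measure on `(0,∞) × ℝᵏ`. -/
abbrev nu (k : ℕ) : Measure (ℝ × E k) := (volume.restrict (Ioi (0 : ℝ))).prod volume

/-- The weights. -/
structure AW (a : ℝ → ℝ) (ψ : E k → ℝ) (ra rb : ℝ) : Prop where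
  ac : Continuous a
  rpos : 0 < ra
  supp : ∀ ρ, ρ ∉ Icc ra rb → a ρ = 0
  pc : Continuous ψ
  pcs : HasCompactSupport ψ

/-- the integrand -/
def FF (a : ℝ → ℝ) (ψ : E k → ℝ) (b : E 3) (m : ℕ) (x : E (k + 3)) (p : ℝ × E k) : ℝ :=
  a p.1 * ψ p.2 * Ker k m (jn b p.2) p.1 x

theorem Ker_jn (m : ℕ) (b : E 3) (w : E k) (ρ : ℝ) (x : E (k + 3)) :
    Ker k m (jn b w) ρ x = KK k m ‖pL x - b‖ (z3 (pL x - b)) ρ (pP x - w) := by
  rw [Ker, zz_eq, pL_sub, pP_sub, pL_jn, pP_jn]

theorem measurable_Ker (m : ℕ) (b : E 3) :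
    Measurable (fun q : E (k + 3) × (ℝ × E k) => Ker k m (jn b q.2.2) q.2.1 q.1) := by
  have hpL : Continuous (fun q : E (k + 3) × (ℝ × E k) => pL q.1 - b) :=
    (continuous_pL.comp continuous_fst).sub continuous_const
  have hpP : Continuous (fun q : E (k + 3) × (ℝ × E k) => pP q.1 - q.2.2) :=
    (continuous_pP.comp continuous_fst).sub continuous_snd.snd
  have hz : Continuous (fun q : E (k + 3) × (ℝ × E k) => z3 (pL q.1 - b)) :=
    continuous_z3.comp hpL
  have hD : Continuous (fun q : E (k + 3) × (ℝ × E k) =>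
      DD k ‖pL q.1 - b‖ (z3 (pL q.1 - b)) q.2.1 (pP q.1 - q.2.2)) := by
    unfold DD
    fun_prop
  simp only [Ker_jn, KK]
  refine Measurable.div (Measurable.pow_const (Measurable.div ?_ hD.measurable) m)
    (Measurable.pow_const hD.measurable.sqrt _)
  exact (by fun_prop : Continuous (fun q : E (k + 3) × (ℝ × E k) =>
    4 * q.2.1 ^ 2 * z3 (pL q.1 - b) ^ 2)).measurable

/-- the reflection -/
def rfl' (y : E k) : ℝ × E k ≃ᵐ ℝ × E k :=
  (MeasurableEquiv.refl ℝ).prodCongr (MeasurableEquiv.subLeft y)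

theorem mp_rfl (y : E k) : MeasurePreserving (rfl' y) (nu k) (nu k) :=
  (MeasurePreserving.id _).prod (Measure.measurePreserving_sub_left volume y)

/-- the integrand after the reflection -/
theorem FF_rfl (a : ℝ → ℝ) (ψ : E k → ℝ) (b : E 3) (m : ℕ) (x : E (k + 3)) (p : ℝ × E k) :
    FF a ψ b m x (rfl' (pP x) p) =
      a p.1 * ψ (pP x - p.2) * KK k m ‖pL x - b‖ (z3 (pL x - b)) p.1 p.2 := by
  have h1 : rfl' (pP x) p = (p.1, pP x - p.2) := rfl
  rw [FF, h1, Ker_jn]
  simp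

variable {a : ℝ → ℝ} {ψ : E k → ℝ} {ra rb : ℝ}

theorem AW.integrable (h : AW a ψ ra rb) (b : E 3) (m : ℕ) {x : E (k + 3)}
    (hx : 0 < z3 (pL x - b)) : Integrable (FF a ψ b m x) (nu k) := by
  have h1 := integrable_prod_F h.ac h.supp h.pc h.pcs (m := m) (pP x)
    (norm_pos_of_z3 hx) hx
  rw [← (mp_rfl (pP x)).integrable_comp_emb (MeasurableEquiv.measurableEmbedding _)]
  refine h1.congr (Eventually.of_forall fun p => ?_)
  exact (FF_rfl a ψ b m x p).symm

theorem integral_FF (b : E 3) (m : ℕ) (x : E (k + 3)) :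
    ∫ p, FF a ψ b m x p ∂(nu k) = ∫ p, a p.1 * ψ (pP x - p.2) *
      KK k m ‖pL x - b‖ (z3 (pL x - b)) p.1 p.2 ∂(nu k) := by
  rw [← (mp_rfl (pP x)).integral_comp' (g := FF a ψ b m x)]
  refine integral_congr_ae (Eventually.of_forall fun p => ?_)
  exact FF_rfl a ψ b m x p

theorem AW.integral_eq' (h : AW a ψ ra rb) (b : E 3) (m : ℕ) {x : E (k + 3)}
    (hx : 0 < z3 (pL x - b)) :
    ∫ p, FF a ψ b m x p ∂(nu k) = ∫ ρ in Ioi (0 : ℝ), ∫ v, a ρ * ψ (pP x - v) *
      KK k m ‖pL x - b‖ (z3 (pL x - b)) ρ v := by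
  rw [integral_FF]
  exact integral_prod _ (integrable_prod_F h.ac h.supp h.pc h.pcs (m := m) (pP x)
    (norm_pos_of_z3 hx) hx)

theorem integral_norm_FF (b : E 3) (m : ℕ) (x : E (k + 3)) :
    ∫ p, ‖FF a ψ b m x p‖ ∂(nu k) = ∫ p, |a p.1 * ψ (pP x - p.2) *
      KK k m ‖pL x - b‖ (z3 (pL x - b)) p.1 p.2| ∂(nu k) := by
  rw [← (mp_rfl (pP x)).integral_comp' (g := fun p => ‖FF a ψ b m x p‖)]
  refine integral_congr_ae (Eventually.of_forall fun p => ?_)
  simp only [FF_rfl, Real.norm_eq_abs]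

theorem AW.bound (h : AW a ψ ra rb) : ∃ B : ℝ, 0 ≤ B ∧ ∀ (b : E 3) (m : ℕ) (x : E (k + 3)),
    1 ≤ m → 0 < z3 (pL x - b) → ∫ p, ‖FF a ψ b m x p‖ ∂(nu k) ≤ B * kap k m := by
  obtain ⟨B, hB, hB'⟩ := integral_abs_le h.ac h.rpos h.supp h.pc h.pcs
  refine ⟨B, hB, fun b m x hm hx => ?_⟩
  rw [integral_norm_FF]
  exact hB' _ _ _ m (norm_pos_of_z3 hx) hx hm

/-- joint integrability -/
theorem AW.integrable_joint (h : AW a ψ ra rb) {Q : E (k + 3) → ℝ} (hQ : Continuous Q)
    (hQc : HasCompactSupport Q) (b : E 3) {m : ℕ} (hm : 1 ≤ m) :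
    Integrable (fun q : E (k + 3) × (ℝ × E k) => Q q.1 * FF a ψ b m q.1 q.2)
      (volume.prod (nu k)) := by
  have hmeas : Measurable (fun q : E (k + 3) × (ℝ × E k) => Q q.1 * FF a ψ b m q.1 q.2) := by
    refine (hQ.measurable.comp measurable_fst).mul ?_
    unfold FF
    refine Measurable.mul ?_ (measurable_Ker m b)
    exact ((h.ac.comp continuous_snd.fst).mul (h.pc.comp continuous_snd.snd)).measurable
  obtain ⟨B, hB, hB'⟩ := h.bound
  rw [integrable_prod_iff hmeas.aestronglyMeasurable]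
  refine ⟨?_, ?_⟩
  · filter_upwards [ae_z3 (k := k) b] with x hx
    exact (h.integrable b m hx).const_mul _
  · have hint : Integrable (fun x => ‖Q x‖ * (B * kap k m)) :=
      ((hQ.integrable_of_hasCompactSupport hQc).norm).mul_const _
    refine hint.mono' hmeas.aestronglyMeasurable.norm.integral_prod_right' ?_
    filter_upwards [ae_z3 (k := k) b] with x hx
    rw [Real.norm_of_nonneg (integral_nonneg fun p => norm_nonneg _)]
    simp only [norm_mul (Q x)]
    rw [integral_const_mul]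
    gcongr
    exact hB' b m x hm hx

theorem AW.swap (h : AW a ψ ra rb) {Q : E (k + 3) → ℝ} (hQ : Continuous Q)
    (hQc : HasCompactSupport Q) (b : E 3) {m : ℕ} (hm : 1 ≤ m) :
    ∫ p, (a p.1 * ψ p.2 * ∫ x, Q x * Ker k m (jn b p.2) p.1 x) ∂(nu k) =
      ∫ x, Q x * ∫ p, FF a ψ b m x p ∂(nu k) := by
  have h1 := integral_integral_swap (f := fun x p => Q x * FF a ψ b m x p)
    (h.integrable_joint hQ hQc b hm)
  have h2 : ∀ p : ℝ × E k, ∫ x, Q x * FF a ψ b m x p =
      a p.1 * ψ p.2 * ∫ x, Q x * Ker k m (jn b p.2) p.1 x := by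
    intro p
    rw [← integral_const_mul]
    refine integral_congr_ae (Eventually.of_forall fun x => ?_)
    simp only [FF]
    ring
  simp only [h2, integral_const_mul] at h1
  exact h1.symm

theorem AW.integrable_outer (h : AW a ψ ra rb) {Q : E (k + 3) → ℝ} (hQ : Continuous Q)
    (hQc : HasCompactSupport Q) (b : E 3) {m : ℕ} (hm : 1 ≤ m) :
    Integrable (fun p : ℝ × E k => a p.1 * ψ p.2 * ∫ x, Q x * Ker k m (jn b p.2) p.1 x)
      (nu k) := by
  have h1 := (h.integrable_joint hQ hQc b hm).integral_prod_right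
  refine h1.congr (Eventually.of_forall fun p => ?_)
  simp only
  rw [← integral_const_mul]
  refine integral_congr_ae (Eventually.of_forall fun x => ?_)
  simp only [FF]
  ring

/-- the limit -/
theorem AW.tendsto (h : AW a ψ ra rb) {Q : E (k + 3) → ℝ} (hQ : Continuous Q)
    (hQc : HasCompactSupport Q) (b : E 3) :
    Tendsto (fun m => (∫ p, (a p.1 * ψ p.2 * ∫ x, Q x * Ker k m (jn b p.2) p.1 x) ∂(nu k)) /
      kap k m) atTop
      (𝓝 (∫ x, Q x * (a ‖pL x - b‖ * ψ (pP x) / (2 * ‖pL x - b‖) ^ (k + 1)))) := by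
  obtain ⟨B, hB, hB'⟩ := h.bound
  obtain ⟨hk, B', hB''⟩ := lap' k a ψ ra rb h.ac h.rpos h.supp h.pc h.pcs
  have h1 : Tendsto (fun m => ∫ x, Q x * ((∫ p, FF a ψ b m x p ∂(nu k)) / kap k m)) atTop
      (𝓝 (∫ x, Q x * (a ‖pL x - b‖ * ψ (pP x) / (2 * ‖pL x - b‖) ^ (k + 1)))) := by
    refine tendsto_integral_filter_of_dominated_convergence (fun x => ‖Q x‖ * B) ?_ ?_ ?_ ?_
    · filter_upwards [eventually_ge_atTop 1] with m hm
      have h2 := (h.integrable_joint hQ hQc b hm).integral_prod_left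
      have h3 := (h2.div_const (kap k m)).aestronglyMeasurable
      refine h3.congr (Eventually.of_forall fun x => ?_)
      simp only
      rw [integral_const_mul, mul_div_assoc]
    · filter_upwards [eventually_ge_atTop 1] with m hm
      filter_upwards [ae_z3 (k := k) b] with x hx
      have hkm := hk m hm
      rw [norm_mul, norm_div, Real.norm_of_nonneg hkm.le]
      gcongr
      rw [div_le_iff₀ hkm]
      exact (norm_integral_le_integral_norm _).trans (hB' b m x hm hx)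
    · exact ((hQ.integrable_of_hasCompactSupport hQc).norm).mul_const _
    · filter_upwards [ae_z3 (k := k) b] with x hx
      refine Tendsto.const_mul _ ?_
      have h2 := (hB'' ‖pL x - b‖ (z3 (pL x - b)) (pP x) (norm_pos_of_z3 hx) hx).2
      simp only [h.integral_eq' b _ hx]
      exact h2
  refine h1.congr' ?_
  filter_upwards [eventually_ge_atTop 1] with m hm
  rw [h.swap hQ hQc b hm, ← integral_div]
  refine integral_congr_ae (Eventually.of_forall fun x => ?_)
  simp only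
  rw [mul_div_assoc]

end Vale.Agent.P088.R2.H196
end
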