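import Vale.Agent.P088.R2.H509.Ch
import Vale.Agent.P088.R2.H509.Van

/-!
# P088, Theorem S, boundary step: the end of the proof

If the quotient `Δ ω₂ / ω₂` vanishes near `0 = X z`, then `c = 1` near `p`, by linear unique
continuation from the boundary for `c^{(n-2)/4} - 1`.
-/

set_option linter.all false

open Bundle Manifold MeasureTheory Set Filter Topology Metric
open scoped ContDiff Matrix

noncomputable section

namespace Vale.Agent.P088.R2.H509

open Vale.Agent.P088 Vale.Agent.P088.EYM Vale.Agent.P088.EYM.O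

universe u

variable {n N : ℕ} [NeZero n] {M : Type u} [TopologicalSpace M]
  [ChartedSpace (EuclideanHalfSpace n) M] [IsManifold (𝓡∂ n) ∞ M] [T2Space M] [CompactSpace M]
  [ConnectedSpace M] [MeasurableSpace M] [BorelSpace M] {P Q : One n N M} {Γ : Set M} {c : M → ℝ}
  {p : M} {X : E n → E n} {om : E n → ℝ} {z : E n} {r r' R : ℝ}

/-- The end of the proof of the boundary step. -/
theorem fin_bd (h : Su P Q Γ c p X om z r r' R) (hz : z = xc n p p)
    (hq : ∃ δ > 0, ∀ y ∈ ball (0 : E n) δ,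
      ext0 X z r (fun x => Lx X (w2 c p X om) x / w2 c p X om x) y = 0) :
    ∀ᶠ x in 𝓝 p, c x = 1 := by
  obtain ⟨δ, hδ, hq⟩ := hq
  have hzH : z ∈ HB z r' := ⟨mem_ball_self (h.geo.rpos.trans h.geo.rr), h.geo.z0.ge⟩
  -- a small half ball
  obtain ⟨ρ, hρ, hρr, hρδ⟩ : ∃ ρ > 0, ρ ≤ r ∧ ∀ x ∈ HB z ρ, X x ∈ ball (0 : E n) δ := by
    have h1 : ContinuousWithinAt X (HB z r') z := h.geo.sm.continuousOn z hzH
    have h2 : X ⁻¹' ball (0 : E n) δ ∈ 𝓝[HB z r'] z := h1.preimage_mem_nhdsWithin (by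
      rw [h.geo.Xz]; exact ball_mem_nhds _ hδ)
    obtain ⟨ρ, hρ, hb⟩ := Metric.mem_nhdsWithin_iff.1 h2
    refine ⟨min ρ r, lt_min hρ h.geo.rpos, min_le_right _ _, fun x hx => hb ⟨?_, ?_⟩⟩
    · exact ball_subset_ball (min_le_left _ _) hx.1
    · exact h.HBr ⟨ball_subset_ball (min_le_right _ _) hx.1, hx.2⟩
  have hs : HB z ρ ⊆ HB z r := inter_subset_inter_left _ (ball_subset_ball hρr)
  have hs' : HB z ρ ⊆ HB z r' := hs.trans h.HBr
  -- `ω₂` is harmonic there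
  have hL2 : ∀ x ∈ HB z ρ, Lx X (w2 c p X om) x = 0 := by
    intro x hx
    have h1 := hq (X x) (hρδ x hx)
    rw [h.geo.ext0_X (HB_sub_KB (hs hx))] at h1
    exact (div_eq_zero_iff.1 h1).resolve_right (h.w2p x (hs' hx)).ne'
  set F : E n → ℝ := fun x => (c ((xc n p).symm x)) ^ (((n : ℝ) - 2) / 4) - 1 with hF
  have vF : Van2 z r' F := h.Tvan
  have sF : ContDiffOn ℝ ∞ F (HB z r) := vF.sm.mono h.HBr
  have hLs : ∀ x ∈ HB z ρ, Ls (P.loc p).g F x = 0 := by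
    intro x hx
    rw [h.LP sF (hs hx)]
    have e : (fun x => om (X x) * F x) = fun x => w2 c p X om x - om (X x) := by
      funext x
      simp only [hF, w2]
      ring
    rw [e, h.geo.Lx_sub h.w2s h.w1s (hs hx), hL2 x hx, h.Lw1 x (hs hx)]
    ring
  -- a nonzero vector
  obtain ⟨v, hv⟩ : ∃ v : Fib N, v ≠ 0 := by
    refine ⟨EuclideanSpace.single ⟨0, h.hy.hN⟩ (1 : ℂ), fun h0 => ?_⟩
    have h1 := congrArg (fun v : Fib N => v ⟨0, h.hy.hN⟩) h0
    simp at h1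
  have hok : (P.loc p).Ok (HB z ρ) := cRungeB_ok_mono h.okP hs'
  have hgg : ∀ j k, ContDiffOn ℝ ∞ (gg (P.loc p).g j k) (HB z ρ) := fun j k =>
    (h.ggP j k).mono hs
  have sFρ : ContDiffOn ℝ ∞ F (HB z ρ) := sF.mono hs
  have hB : ∀ x ∈ HB z ρ, ∀ j, (P.loc p).B j x = 0 := fun x _ j => BP P h.hy.A1 p x j
  have hsol : Sol (P.loc p) (HB z ρ) (fun y => sp v (F y)) := by
    refine ⟨(sp v).contDiff.comp_contDiffOn sFρ, fun x hx => ?_⟩
    rw [lop_sp (HB_rel z ρ) hgg hB sFρ v hx, hLs x hx, map_zero]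
  have h0 : ∀ x ∈ HB z ρ, x 0 = 0 → sp v (F x) = 0 ∧ flux (P.loc p) 0 (fun y => sp v (F y)) x = 0 := by
    intro x hx hx0
    refine ⟨by rw [vF.v0 x (hs' hx) hx0, map_zero], ?_⟩
    rw [flux_sp (HB_rel z ρ) hB sFρ v hx]
    simp [vF.v1 x (hs' hx) hx0]
  have hfin : ∀ x ∈ HB z ρ, sp v (F x) = 0 :=
    TM.fLinBd n N (P.loc p) z ρ hρ h.geo.z0 hok _ hsol h0
  have hc1 : ∀ x ∈ HB z ρ, c ((xc n p).symm x) = 1 := by
    intro x hx
    have h1 : F x = 0 := sp_inj hv (by rw [hfin x hx, map_zero])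
    have h2 : (c ((xc n p).symm x)) ^ (((n : ℝ) - 2) / 4) = 1 := by
      simp only [hF] at h1
      linarith
    have h3 : ((n : ℝ) - 2) / 4 ≠ 0 := by
      have := h.n2
      positivity
    have h4 := h.hy.pos ((xc n p).symm x)
    have h5 := Real.rpow_left_injOn h3 (show (0 : ℝ) ≤ c ((xc n p).symm x) from h4.le)
      (show (0 : ℝ) ≤ 1 from zero_le_one) (by simpa using h2)
    exact h5
  have hop : IsOpen ((xc n p).symm '' HB z ρ) :=
    TM.xc_image_open p (HB_rel z ρ) (hs'.trans h.sub)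
  have hmem : p ∈ (xc n p).symm '' HB z ρ := by
    refine ⟨z, ⟨mem_ball_self hρ, h.geo.z0.ge⟩, ?_⟩
    rw [hz]
    exact extChartAt_to_inv p
  filter_upwards [hop.mem_nhds hmem] with x hx
  obtain ⟨y, hy, rfl⟩ := hx
  exact hc1 y hy

end Vale.Agent.P088.R2.H509
end
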